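import Mathlib
import Crest.Prelude.Def_QState
import Crest.Prelude.Def_QChannel

/-! Basic theory of the von Neumann entropy `Crest.Quantum.vnEntropy`. -/

set_option autoImplicit false
set_option linter.unusedSectionVars false

open Matrix Crest.Quantum
open scoped ComplexOrder Kronecker

namespace Crest.Agent.VN

variable {n m : Type*} [Fintype n] [DecidableEq n] [Fintype m] [DecidableEq m]

/-- real diagonal matrix -/
noncomputable def dg (l : n → ℝ) : Matrix n n ℂ := diagonal fun i => (l i : ℂ)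

lemma dg_apply (l : n → ℝ) (i j : n) : dg l i j = if i = j then (l i : ℂ) else 0 := by
  simp [dg, diagonal_apply]

lemma dg_conjT (l : n → ℝ) : (dg l)ᴴ = dg l := by
  ext i j
  simp only [dg, conjTranspose_apply, diagonal_apply]
  by_cases h : i = j
  · subst h; simp
  · simp [h, Ne.symm h]

lemma mul_dg_apply {k : Type*} (A : Matrix k n ℂ) (l : n → ℝ) (i : k) (j : n) :
    (A * dg l) i j = A i j * l j := by simp [dg]

lemma dg_mul_apply {k : Type*} (A : Matrix n k ℂ) (l : n → ℝ) (i : n) (j : k) :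
    (dg l * A) i j = l i * A i j := by simp [dg]

lemma trace_dg (l : n → ℝ) : (dg l).trace = ((∑ i, l i : ℝ) : ℂ) := by
  simp [dg]

/-- a unitary diagonalisation -/
structure Diag (A U : Matrix n n ℂ) (l : n → ℝ) : Prop where
  uu : Uᴴ * U = 1
  eq : A = U * dg l * Uᴴ

lemma Diag.uu' {A U : Matrix n n ℂ} {l : n → ℝ} (h : Diag A U l) : U * Uᴴ = 1 :=
  mul_eq_one_comm.mp h.uu

lemma Diag.conj {A U : Matrix n n ℂ} {l : n → ℝ} (h : Diag A U l) : Uᴴ * A * U = dg l := by
  rw [h.eq]
  calc Uᴴ * (U * dg l * Uᴴ) * U = (Uᴴ * U) * dg l * (Uᴴ * U) := by simp only [Matrix.mul_assoc]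
    _ = dg l := by rw [h.uu]; simp

lemma Diag.herm {A U : Matrix n n ℂ} {l : n → ℝ} (h : Diag A U l) : A.IsHermitian := by
  rw [h.eq]
  simp [IsHermitian, conjTranspose_mul, dg_conjT, Matrix.mul_assoc]

lemma diag_eig {A : Matrix n n ℂ} (hA : A.IsHermitian) :
    Diag A (hA.eigenvectorUnitary : Matrix n n ℂ) hA.eigenvalues := by
  refine ⟨?_, ?_⟩
  · exact Unitary.coe_star_mul_self hA.eigenvectorUnitary
  · have := hA.spectral_theorem
    rw [Unitary.conjStarAlgAut_apply] at this
    exact this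

lemma exists_diag {A : Matrix n n ℂ} (hA : A.IsHermitian) : ∃ U l, Diag A U l :=
  ⟨_, _, diag_eig hA⟩

lemma Diag.charpoly {A U : Matrix n n ℂ} {l : n → ℝ} (h : Diag A U l) :
    A.charpoly = ∏ i, (Polynomial.X - Polynomial.C (l i : ℂ)) := by
  conv_lhs => rw [h.eq, charpoly_mul_comm, ← Matrix.mul_assoc, h.uu]
  simp [dg, charpoly_diagonal]

lemma Diag.sum_eq {A U V : Matrix n n ℂ} {l l' : n → ℝ} (h : Diag A U l) (h' : Diag A V l')
    (f : ℝ → ℝ) : ∑ i, f (l i) = ∑ i, f (l' i) := by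
  have key : ∀ {W : Matrix n n ℂ} {k : n → ℝ}, Diag A W k →
      A.charpoly.roots = Multiset.map (fun i => (k i : ℂ)) Finset.univ.val := by
    intro W k hk
    rw [hk.charpoly, Polynomial.roots_prod]
    · simp
    · simp [Finset.prod_ne_zero_iff, Polynomial.X_sub_C_ne_zero]
  have e := (key h).symm.trans (key h')
  have e2 := congrArg (fun s : Multiset ℂ => (s.map fun z => f z.re).sum) e
  simpa [Multiset.map_map] using e2

lemma Diag.vn {A U : Matrix n n ℂ} {l : n → ℝ} (h : Diag A U l) :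
    vnEntropy A = ∑ i, Real.negMulLog (l i) := by
  rw [vnEntropy, dif_pos h.herm, ← (diag_eig h.herm).sum_eq h Real.negMulLog,
    ← Finset.sum_neg_distrib]
  simp [Real.negMulLog]

lemma Diag.trace {A U : Matrix n n ℂ} {l : n → ℝ} (h : Diag A U l) :
    A.trace = ((∑ i, l i : ℝ) : ℂ) := by
  rw [h.eq, trace_mul_comm, ← Matrix.mul_assoc, h.uu, Matrix.one_mul, trace_dg]

lemma Diag.nonneg {A U : Matrix n n ℂ} {l : n → ℝ} (h : Diag A U l) (hA : A.PosSemidef) (i : n) :
    0 ≤ l i := by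
  have := (hA.conjTranspose_mul_mul_same U).diag_nonneg (i := i)
  rw [h.conj, dg_apply, if_pos rfl] at this
  exact_mod_cast this

lemma Diag.pos {A U : Matrix n n ℂ} {l : n → ℝ} (h : Diag A U l) (hA : A.PosDef) (i : n) :
    0 < l i := by
  have hinj : Function.Injective U.mulVec := by
    intro x y hxy
    have := congrArg (Uᴴ.mulVec) hxy
    simpa [mulVec_mulVec, h.uu] using this
  have := (hA.conjTranspose_mul_mul_same hinj).diag_pos (i := i)
  rw [h.conj, dg_apply, if_pos rfl] at this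
  exact_mod_cast this

lemma Diag.sum_one {A U : Matrix n n ℂ} {l : n → ℝ} (h : Diag A U l) (hA : IsDensity A) :
    ∑ i, l i = 1 := by
  have := h.trace
  rw [hA.2] at this
  exact_mod_cast this.symm

lemma Diag.le_one {A U : Matrix n n ℂ} {l : n → ℝ} (h : Diag A U l) (hA : IsDensity A) (i : n) :
    l i ≤ 1 := by
  rw [← h.sum_one hA]
  exact Finset.single_le_sum (f := l) (fun j _ => h.nonneg hA.1 j) (Finset.mem_univ i)

lemma diag_dg (l : n → ℝ) : Diag (dg l) 1 l := ⟨by simp, by simp⟩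

lemma vn_dg (l : n → ℝ) : vnEntropy (dg l) = ∑ i, Real.negMulLog (l i) := (diag_dg l).vn

lemma vn_nonneg {A : Matrix n n ℂ} (hA : IsDensity A) : 0 ≤ vnEntropy A := by
  obtain ⟨U, l, h⟩ := exists_diag hA.1.1
  rw [h.vn]
  exact Finset.sum_nonneg fun i _ => Real.negMulLog_nonneg (h.nonneg hA.1 i) (h.le_one hA i)

lemma Diag.uconj {A U V : Matrix n n ℂ} {l : n → ℝ} (h : Diag A U l) (hV : Vᴴ * V = 1) :
    Diag (Vᴴ * A * V) (Vᴴ * U) l := by
  have hV' : V * Vᴴ = 1 := mul_eq_one_comm.mp hV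
  refine ⟨?_, ?_⟩
  · rw [conjTranspose_mul, conjTranspose_conjTranspose]
    calc Uᴴ * V * (Vᴴ * U) = Uᴴ * (V * Vᴴ) * U := by simp only [Matrix.mul_assoc]
      _ = 1 := by rw [hV', Matrix.mul_one, h.uu]
  · conv_lhs => rw [h.eq]
    simp only [conjTranspose_mul, conjTranspose_conjTranspose, Matrix.mul_assoc]

lemma vn_uconj {A V : Matrix n n ℂ} (hA : A.IsHermitian) (hV : Vᴴ * V = 1) :
    vnEntropy (Vᴴ * A * V) = vnEntropy A := by
  obtain ⟨U, l, h⟩ := exists_diag hA
  rw [h.vn, (h.uconj hV).vn]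

lemma Diag.submatrix {A U : Matrix n n ℂ} {l : n → ℝ} (h : Diag A U l) (e : m ≃ n) :
    Diag (A.submatrix e e) (U.submatrix e e) (l ∘ e) := by
  refine ⟨?_, ?_⟩
  · rw [conjTranspose_submatrix, submatrix_mul_equiv, h.uu, submatrix_one_equiv]
  · have : dg (l ∘ e) = (dg l).submatrix e e := by
      ext i j; simp [dg_apply]
    rw [this, conjTranspose_submatrix, submatrix_mul_equiv, submatrix_mul_equiv, ← h.eq]

lemma vn_submatrix {A : Matrix n n ℂ} (hA : A.IsHermitian) (e : m ≃ n) :
    vnEntropy (A.submatrix e e) = vnEntropy A := by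
  obtain ⟨U, l, h⟩ := exists_diag hA
  rw [h.vn, (h.submatrix e).vn]
  exact Equiv.sum_comp e fun i => Real.negMulLog (l i)

lemma col_normSq {U : Matrix n n ℂ} (h : Uᴴ * U = 1) (k : n) : ∑ i, Complex.normSq (U i k) = 1 := by
  have := congrFun (congrFun h k) k
  simp only [mul_apply, conjTranspose_apply, one_apply_eq] at this
  have h2 : ((∑ i, Complex.normSq (U i k) : ℝ) : ℂ) = 1 := by
    rw [← this]; push_cast
    refine Finset.sum_congr rfl fun i _ => ?_
    rw [Complex.normSq_eq_conj_mul_self]; rfl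
  exact_mod_cast h2

lemma row_normSq {U : Matrix n n ℂ} (h : Uᴴ * U = 1) (i : n) : ∑ k, Complex.normSq (U i k) = 1 := by
  have h' : Uᴴᴴ * Uᴴ = 1 := by rw [conjTranspose_conjTranspose]; exact mul_eq_one_comm.mp h
  have := col_normSq h' i
  simpa using this

lemma Diag.apply_re {A U : Matrix n n ℂ} {l : n → ℝ} (h : Diag A U l) (i : n) :
    (A i i).re = ∑ k, Complex.normSq (U i k) * l k := by
  have : A i i = ((∑ k, Complex.normSq (U i k) * l k : ℝ) : ℂ) := by
    conv_lhs => rw [h.eq]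
    rw [mul_apply]; push_cast
    refine Finset.sum_congr rfl fun k _ => ?_
    rw [mul_dg_apply, conjTranspose_apply, Complex.normSq_eq_conj_mul_self]
    simp only [RCLike.star_def]; ring
  rw [this, Complex.ofReal_re]

/-- Peierls' inequality in the standard basis -/
lemma peierls0 {A : Matrix n n ℂ} (hA : A.PosSemidef) :
    vnEntropy A ≤ ∑ i, Real.negMulLog (A i i).re := by
  obtain ⟨U, l, h⟩ := exists_diag hA.1
  rw [h.vn]
  calc ∑ k, Real.negMulLog (l k) = ∑ k, ∑ i, Complex.normSq (U i k) * Real.negMulLog (l k) := by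
        refine Finset.sum_congr rfl fun k _ => ?_
        rw [← Finset.sum_mul, col_normSq h.uu, one_mul]
    _ = ∑ i, ∑ k, Complex.normSq (U i k) * Real.negMulLog (l k) := Finset.sum_comm
    _ ≤ _ := by
        refine Finset.sum_le_sum fun i _ => ?_
        rw [h.apply_re]
        have := Real.concaveOn_negMulLog.le_map_sum (t := Finset.univ)
          (w := fun k => Complex.normSq (U i k)) (p := l)
          (fun k _ => Complex.normSq_nonneg _) (row_normSq h.uu i)
          (fun k _ => h.nonneg hA k)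
        simpa using this

lemma peierls {A V : Matrix n n ℂ} (hA : A.PosSemidef) (hV : Vᴴ * V = 1) :
    vnEntropy A ≤ ∑ i, Real.negMulLog ((Vᴴ * A * V) i i).re := by
  rw [← vn_uconj hA.1 hV]
  exact peierls0 (hA.conjTranspose_mul_mul_same V)

lemma diag_re_nonneg {k : Type*} {A : Matrix k k ℂ} (hA : A.PosSemidef) (i : k) : 0 ≤ (A i i).re :=
  (Complex.nonneg_iff.mp (hA.diag_nonneg (i := i))).1

lemma psd_rsmul {k : Type*} {A : Matrix k k ℂ} (hA : A.PosSemidef) {c : ℝ} (hc : 0 ≤ c) :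
    ((c : ℂ) • A).PosSemidef := hA.smul (by exact_mod_cast hc)

/-- concavity of the entropy -/
lemma vn_concave {ι : Type*} (s : Finset ι) (q : ι → ℝ) (ρ : ι → Matrix n n ℂ)
    (hq : ∀ a ∈ s, 0 ≤ q a) (hs : ∑ a ∈ s, q a = 1) (hρ : ∀ a ∈ s, (ρ a).PosSemidef) :
    ∑ a ∈ s, q a * vnEntropy (ρ a) ≤ vnEntropy (∑ a ∈ s, (q a : ℂ) • ρ a) := by
  have hσ : (∑ a ∈ s, (q a : ℂ) • ρ a).PosSemidef :=
    posSemidef_sum s fun a ha => psd_rsmul (hρ a ha) (hq a ha)
  obtain ⟨U, l, h⟩ := exists_diag hσ.1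
  rw [h.vn]
  calc ∑ a ∈ s, q a * vnEntropy (ρ a)
      ≤ ∑ a ∈ s, q a * ∑ i, Real.negMulLog ((Uᴴ * ρ a * U) i i).re :=
        Finset.sum_le_sum fun a ha => mul_le_mul_of_nonneg_left (peierls (hρ a ha) h.uu) (hq a ha)
    _ = ∑ i, ∑ a ∈ s, q a * Real.negMulLog ((Uᴴ * ρ a * U) i i).re := by
        simp only [Finset.mul_sum]; exact Finset.sum_comm
    _ ≤ _ := by
        refine Finset.sum_le_sum fun i _ => ?_
        have e : l i = ∑ a ∈ s, q a * ((Uᴴ * ρ a * U) i i).re := by
          have := congrFun (congrFun h.conj i) i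
          rw [dg_apply, if_pos rfl, Matrix.mul_sum, Matrix.sum_mul, Matrix.sum_apply] at this
          have h2 := congrArg Complex.re this
          rw [Complex.ofReal_re, Complex.re_sum] at h2
          rw [← h2]
          refine Finset.sum_congr rfl fun a _ => ?_
          rw [Matrix.mul_smul, Matrix.smul_mul, Matrix.smul_apply, smul_eq_mul, Complex.re_ofReal_mul]
        rw [e]
        have := Real.concaveOn_negMulLog.le_map_sum (t := s) (w := q)
          (p := fun a => ((Uᴴ * ρ a * U) i i).re) hq hs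
          (fun a ha => diag_re_nonneg ((hρ a ha).conjTranspose_mul_mul_same U) i)
        simpa using this

lemma vn_concave2 {A B : Matrix n n ℂ} (hA : A.PosSemidef) (hB : B.PosSemidef) {a b : ℝ}
    (ha : 0 ≤ a) (hb : 0 ≤ b) (hab : a + b = 1) :
    a * vnEntropy A + b * vnEntropy B ≤ vnEntropy ((a : ℂ) • A + (b : ℂ) • B) := by
  have := vn_concave (Finset.univ : Finset Bool) (fun s => if s then a else b)
    (fun s => if s then A else B) (by intro s _; cases s <;> simp [ha, hb]) (by simp [hab])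
    (by intro s _; cases s <;> simp [hA, hB])
  simpa using this

lemma Diag.kron {A U : Matrix n n ℂ} {l : n → ℝ} {B V : Matrix m m ℂ} {k : m → ℝ}
    (h : Diag A U l) (h' : Diag B V k) :
    Diag (A ⊗ₖ B) (U ⊗ₖ V) (fun p => l p.1 * k p.2) := by
  refine ⟨?_, ?_⟩
  · rw [conjTranspose_kronecker, ← mul_kronecker_mul, h.uu, h'.uu, one_kronecker_one]
  · have : dg (fun p : n × m => l p.1 * k p.2) = dg l ⊗ₖ dg k := by
      simp [dg, diagonal_kronecker_diagonal]
    rw [this, conjTranspose_kronecker, ← mul_kronecker_mul, ← mul_kronecker_mul, ← h.eq, ← h'.eq]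

lemma vn_kron {A : Matrix n n ℂ} {B : Matrix m m ℂ} (hA : IsDensity A) (hB : IsDensity B) :
    vnEntropy (A ⊗ₖ B) = vnEntropy A + vnEntropy B := by
  obtain ⟨U, l, h⟩ := exists_diag hA.1.1
  obtain ⟨V, k, h'⟩ := exists_diag hB.1.1
  rw [(h.kron h').vn, h.vn, h'.vn, Fintype.sum_prod_type]
  simp only [Real.negMulLog_mul, Finset.sum_add_distrib, ← Finset.sum_mul, ← Finset.mul_sum,
    h.sum_one hA, h'.sum_one hB, one_mul]

lemma density_kron {A : Matrix n n ℂ} {B : Matrix m m ℂ} (hA : IsDensity A) (hB : IsDensity B) :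
    IsDensity (A ⊗ₖ B) :=
  ⟨hA.1.kronecker hB.1, by rw [trace_kronecker, hA.2, hB.2, one_mul]⟩

lemma vn_fromBlocks_zero {A : Matrix n n ℂ} (hA : A.IsHermitian) :
    vnEntropy (fromBlocks A 0 0 (0 : Matrix m m ℂ)) = vnEntropy A := by
  obtain ⟨U, l, h⟩ := exists_diag hA
  have : Diag (fromBlocks A 0 0 (0 : Matrix m m ℂ)) (fromBlocks U 0 0 1) (Sum.elim l 0) := by
    refine ⟨?_, ?_⟩
    · simp [fromBlocks_conjTranspose, fromBlocks_multiply, h.uu]
    · have : dg (Sum.elim l (0 : m → ℝ)) = fromBlocks (dg l) 0 0 0 := by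
        ext (i | i) (j | j) <;> simp [dg_apply]
      rw [this]
      simp [fromBlocks_conjTranspose, fromBlocks_multiply, ← h.eq]
  rw [this.vn, h.vn]
  simp

/-- trace of a polynomial in a diagonalised matrix -/
lemma Diag.trace_aeval {A U : Matrix n n ℂ} {l : n → ℝ} (h : Diag A U l) (p : Polynomial ℝ) :
    (Polynomial.aeval A p).trace = ((∑ i, p.eval (l i) : ℝ) : ℂ) := by
  have hpow : ∀ k : ℕ, (A ^ k).trace = ((∑ i, l i ^ k : ℝ) : ℂ) := by
    intro k
    have : Diag (A ^ k) U (fun i => l i ^ k) := by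
      refine ⟨h.uu, ?_⟩
      induction k with
      | zero =>
        have : dg (fun i => l i ^ 0) = (1 : Matrix n n ℂ) := by simp [dg]
        rw [this, pow_zero, Matrix.mul_one, h.uu']
      | succ k ih =>
        rw [pow_succ, ih]
        conv_lhs => rw [h.eq]
        have : dg (fun i => l i ^ (k + 1)) = dg (fun i => l i ^ k) * dg l := by
          simp [dg, pow_succ]
        rw [this]
        calc U * dg (fun i => l i ^ k) * Uᴴ * (U * dg l * Uᴴ)
            = U * dg (fun i => l i ^ k) * (Uᴴ * U) * dg l * Uᴴ := by simp only [Matrix.mul_assoc]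
          _ = _ := by rw [h.uu]; simp only [Matrix.mul_assoc, Matrix.mul_one]
    exact this.trace
  induction p using Polynomial.induction_on' with
  | add p q hp hq => simp [hp, hq, Finset.sum_add_distrib]
  | monomial k a =>
    rw [Polynomial.aeval_monomial, Algebra.algebraMap_eq_smul_one, smul_mul_assoc, one_mul,
      trace_smul, hpow]
    simp [Finset.mul_sum]

lemma continuousOn_vn : ContinuousOn (vnEntropy : Matrix n n ℂ → ℝ) {ρ | IsDensity ρ} := by
  refine continuousOn_of_uniform_approx_of_continuousOn fun u hu => ?_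
  obtain ⟨ε, hε, hu'⟩ := Metric.mem_uniformity_dist.mp hu
  obtain ⟨p, hp⟩ := exists_polynomial_near_of_continuousOn 0 1 Real.negMulLog
    Real.continuous_negMulLog.continuousOn (ε / (Fintype.card n + 1)) (by positivity)
  refine ⟨fun A => (Polynomial.aeval A p).trace.re, ?_, fun A hA => hu' ?_⟩
  · refine Continuous.continuousOn ?_
    refine Complex.continuous_re.comp (Continuous.matrix_trace ?_)
    exact p.continuous_aeval
  · obtain ⟨U, l, h⟩ := exists_diag hA.1.1
    simp only [h.vn, h.trace_aeval, Complex.ofReal_re, Real.dist_eq]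
    rw [← Finset.sum_sub_distrib]
    calc |∑ i, (Real.negMulLog (l i) - p.eval (l i))|
        ≤ ∑ i, |Real.negMulLog (l i) - p.eval (l i)| := Finset.abs_sum_le_sum_abs _ _
      _ ≤ ∑ _i : n, ε / (Fintype.card n + 1) := Finset.sum_le_sum fun i _ => by
          rw [abs_sub_comm]; exact (hp _ ⟨h.nonneg hA.1 i, h.le_one hA i⟩).le
      _ < ε := by
          rw [Finset.sum_const, Finset.card_univ, nsmul_eq_mul, ← mul_div_assoc,
            div_lt_iff₀ (by positivity)]
          nlinarith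

end Crest.Agent.VN
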