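import Crest.Agent.Lib.VN.Basic

/-! A non-asymptotic second order upper bound for the entropy of a perturbed matrix. -/

set_option autoImplicit false
set_option linter.unusedSectionVars false

open Matrix Crest.Quantum Filter Topology
open scoped ComplexOrder

namespace Crest.Agent.VN

variable {n : Type*} [Fintype n] [DecidableEq n]

/-- inverse of the logarithmic mean -/
noncomputable def ell (a b : ℝ) : ℝ :=
  if a = b then 1 / a else (Real.log a - Real.log b) / (a - b)

lemma ell_comm (a b : ℝ) : ell a b = ell b a := by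
  unfold ell
  by_cases h : a = b
  · subst h; rfl
  · rw [if_neg h, if_neg (Ne.symm h), ← neg_sub (Real.log b), ← neg_sub b, neg_div_neg_eq]

lemma ell_mul (a b : ℝ) : ell a b * (a - b) = Real.log a - Real.log b := by
  unfold ell
  by_cases h : a = b
  · subst h; simp
  · rw [if_neg h, div_mul_cancel₀ _ (sub_ne_zero.mpr h)]

lemma ell_nonneg {a b : ℝ} (ha : 0 < a) (hb : 0 < b) : 0 ≤ ell a b := by
  unfold ell
  by_cases h : a = b
  · rw [if_pos h]; positivity
  · rw [if_neg h]
    rcases lt_or_gt_of_ne h with h | h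
    · exact div_nonneg_of_nonpos (sub_nonpos.mpr (Real.log_le_log ha h.le)) (by linarith)
    · exact div_nonneg (sub_nonneg.mpr (Real.log_le_log hb h.le)) (by linarith)

lemma dg_mul_dg (a b : n → ℝ) : dg a * dg b = dg fun i => a i * b i := by
  simp [dg]

lemma dg_one : dg (fun _ : n => (1 : ℝ)) = 1 := by simp [dg]

lemma dg_add (a b : n → ℝ) : dg a + dg b = dg fun i => a i + b i := by
  simp [dg]

lemma dg_psd {a : n → ℝ} (ha : ∀ i, 0 ≤ a i) : (dg a).PosSemidef :=
  PosSemidef.diagonal fun i => by simpa using ha i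

lemma trace_re_nonneg {A : Matrix n n ℂ} (hA : A.PosSemidef) : 0 ≤ A.trace.re :=
  (Complex.nonneg_iff.mp hA.trace_nonneg).1

lemma resolvent_ineq (l : n → ℝ) (hl : ∀ i, 0 < l i) (X : Matrix n n ℂ) (hX : X.IsHermitian)
    {U : Matrix n n ℂ} {μ : n → ℝ} (hd : Diag (dg l + X) U μ) (hμ : ∀ k, 0 < μ k)
    (κ : ℝ) (hκ0 : 0 ≤ κ) (hκ : ((κ : ℂ) • dg l - X).PosSemidef) (t : ℝ) (ht : 0 ≤ t) :
    ∑ i, 1 / (l i + t) - ∑ i, (X i i).re / (l i + t) ^ 2 +
      (1 - κ) * ∑ i, ∑ j, Complex.normSq (X i j) / ((l i + t) ^ 2 * (l j + t)) ≤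
      ∑ k, 1 / (μ k + t) := by
  set R : Matrix n n ℂ := dg fun i => 1 / (l i + t) with hR
  set Dt : Matrix n n ℂ := dg fun i => l i + t with hDt
  have hlt : ∀ i, 0 < l i + t := fun i => by have := hl i; linarith
  have hmt : ∀ i, 0 < μ i + t := fun i => by have := hμ i; linarith
  have hRD : R * Dt = 1 := by
    rw [hR, hDt, dg_mul_dg, ← dg_one]; congr 1; ext i; field_simp [(hlt i).ne']
  have hDR : Dt * R = 1 := mul_eq_one_comm.mp hRD
  have hRh : Rᴴ = R := dg_conjT _
  have hP : Diag (Dt + X) U fun k => μ k + t := by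
    refine ⟨hd.uu, ?_⟩
    have e1 : Dt + X = (dg l + X) + dg fun _ => t := by
      rw [hDt, ← dg_add]; abel
    have e2 : (dg fun _ : n => t) = (t : ℂ) • (1 : Matrix n n ℂ) := by
      ext i j; simp [dg_apply, one_apply]
    rw [e1, ← dg_add, Matrix.mul_add, Matrix.add_mul, ← hd.eq, e2, Matrix.mul_smul,
      Matrix.mul_one, Matrix.smul_mul, hd.uu']
  set P := Dt + X with hPdef
  set Pi : Matrix n n ℂ := U * dg (fun k => 1 / (μ k + t)) * Uᴴ with hPi
  have hPiD : Diag Pi U fun k => 1 / (μ k + t) := ⟨hd.uu, rfl⟩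
  have hPP : Pi * P = 1 := by
    rw [hP.eq, hPi]
    calc U * dg (fun k => 1 / (μ k + t)) * Uᴴ * (U * dg (fun k => μ k + t) * Uᴴ)
        = U * (dg (fun k => 1 / (μ k + t)) * (Uᴴ * U) * dg (fun k => μ k + t)) * Uᴴ := by
          simp only [Matrix.mul_assoc]
      _ = 1 := by
          rw [hd.uu, Matrix.mul_one, dg_mul_dg]
          have : (fun i => 1 / (μ i + t) * (μ i + t)) = fun _ => (1 : ℝ) := by
            ext i; field_simp [(hmt i).ne']
          rw [this, dg_one, Matrix.mul_one, hd.uu']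
  have hPP' : P * Pi = 1 := mul_eq_one_comm.mp hPP
  have hPpsd : P.PosSemidef := by
    rw [hP.eq]
    exact (dg_psd fun k => (hmt k).le).mul_mul_conjTranspose_same U
  set Z := R - R * X * R with hZ
  have hZh : Zᴴ = Z := by
    simp only [hZ, conjTranspose_sub, conjTranspose_mul, hRh, hX.eq, Matrix.mul_assoc]
  have h1 := trace_re_nonneg (hPpsd.conjTranspose_mul_mul_same (Pi - Z))
  have hZP : Z * P = 1 - R * X * R * X := by
    rw [hZ, hPdef, Matrix.sub_mul, Matrix.mul_add, Matrix.mul_add, hRD, Matrix.mul_assoc (R * X),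
      hRD, Matrix.mul_one]
    abel
  have e1 : (Pi - Z)ᴴ * P * (Pi - Z) =
      Pi - R + R * X * R - R * X * R * X * R + R * X * R * X * R * X * R := by
    rw [conjTranspose_sub, hZh, hPiD.herm.eq, Matrix.sub_mul, hPP, Matrix.sub_mul, Matrix.one_mul,
      Matrix.mul_sub, Matrix.mul_assoc Z P Pi, hPP', Matrix.mul_one, hZP, hZ]
    simp only [Matrix.sub_mul, Matrix.mul_sub, Matrix.one_mul, Matrix.mul_assoc]
    abel
  have hK : ((κ : ℂ) • Dt - X).PosSemidef := by
    have : (κ : ℂ) • Dt - X = ((κ : ℂ) • dg l - X) + (κ : ℂ) • dg fun _ => t := by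
      rw [hDt, ← dg_add, smul_add]; abel
    rw [this]
    exact hκ.add (psd_rsmul (dg_psd fun _ => ht) hκ0)
  have h2 := trace_re_nonneg (hK.conjTranspose_mul_mul_same (R * X * R))
  have e2 : (R * X * R)ᴴ * ((κ : ℂ) • Dt - X) * (R * X * R) =
      (κ : ℂ) • (R * X * R * X * R) - R * X * R * X * R * X * R := by
    simp only [conjTranspose_mul, hRh, hX.eq, Matrix.mul_sub, Matrix.sub_mul, Matrix.mul_smul,
      Matrix.smul_mul, Matrix.mul_assoc]
    rw [← Matrix.mul_assoc Dt R, hDR, Matrix.one_mul]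
  rw [e1] at h1
  rw [e2] at h2
  simp only [trace_add, trace_sub, trace_smul, Complex.add_re, Complex.sub_re, smul_eq_mul,
    Complex.re_ofReal_mul] at h1 h2
  have t1 : Pi.trace.re = ∑ k, 1 / (μ k + t) := by rw [hPiD.trace, Complex.ofReal_re]
  have t2 : R.trace.re = ∑ i, 1 / (l i + t) := by rw [hR, trace_dg, Complex.ofReal_re]
  have t3 : (R * X * R).trace.re = ∑ i, (X i i).re / (l i + t) ^ 2 := by
    rw [Matrix.trace, Complex.re_sum]
    refine Finset.sum_congr rfl fun i _ => ?_
    rw [diag_apply, hR, mul_dg_apply, dg_mul_apply, Complex.re_mul_ofReal, Complex.re_ofReal_mul]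
    field_simp
  have t4 : (R * X * R * X * R).trace.re =
      ∑ i, ∑ j, Complex.normSq (X i j) / ((l i + t) ^ 2 * (l j + t)) := by
    rw [Matrix.trace, Complex.re_sum]
    refine Finset.sum_congr rfl fun i _ => ?_
    rw [diag_apply, hR, mul_dg_apply, Complex.re_mul_ofReal, mul_apply, Complex.re_sum,
      Finset.sum_mul]
    refine Finset.sum_congr rfl fun j _ => ?_
    rw [mul_dg_apply, dg_mul_apply, ← hX.apply j i]
    have : ((1 / (l i + t) : ℝ) : ℂ) * X i j * ((1 / (l j + t) : ℝ) : ℂ) * star (X i j) =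
        ((1 / (l i + t) * (1 / (l j + t)) * Complex.normSq (X i j) : ℝ) : ℂ) := by
      rw [Complex.ofReal_mul _ (Complex.normSq _), Complex.normSq_eq_conj_mul_self]
      simp only [RCLike.star_def]; push_cast; ring
    rw [this, Complex.ofReal_re]
    field_simp
  rw [t1, t2, t3, t4] at h1
  rw [t4] at h2
  linarith

/-- `log (a+T) - log (1+T)` -/
noncomputable def Lf (a T : ℝ) : ℝ := Real.log (a + T) - Real.log (1 + T)

lemma Lf_deriv {a T : ℝ} (ha : 0 < a) (hT : 0 ≤ T) :
    HasDerivAt (Lf a) (1 / (a + T) - 1 / (1 + T)) T := by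
  have h1 : HasDerivAt (fun T => Real.log (a + T)) (1 / (a + T)) T :=
    ((hasDerivAt_id T).const_add a).log (by simp only [id]; positivity)
  have h2 : HasDerivAt (fun T => Real.log (1 + T)) (1 / (1 + T)) T :=
    ((hasDerivAt_id T).const_add 1).log (by simp only [id]; positivity)
  exact h1.sub h2

lemma tendsto_inv_add (a : ℝ) : Tendsto (fun T : ℝ => 1 / (a + T)) atTop (𝓝 0) :=
  tendsto_const_nhds.div_atTop (tendsto_atTop_add_const_left _ _ tendsto_id)

lemma Lf_tendsto {a : ℝ} (ha : 0 < a) : Tendsto (Lf a) atTop (𝓝 0) := by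
  have h1 : Tendsto (fun T : ℝ => 1 + (a - 1) * (1 / (1 + T))) atTop (𝓝 (1 + (a - 1) * 0)) :=
    ((tendsto_inv_add 1).const_mul _).const_add _
  have h2 := (h1.log (by simp))
  simp only [mul_zero, add_zero, Real.log_one] at h2
  refine h2.congr' ?_
  filter_upwards [eventually_gt_atTop 0] with T hT
  rw [Lf, ← Real.log_div (by positivity) (by positivity)]
  congr 1; field_simp; ring

lemma inv_deriv {a T : ℝ} (ha : 0 < a) (hT : 0 ≤ T) :
    HasDerivAt (fun T => 1 / (a + T)) (-(1 / (a + T) ^ 2)) T := by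
  have h1 : HasDerivAt (fun T => (a + T)⁻¹) (-1 / (a + T) ^ 2) T :=
    ((hasDerivAt_id' T).const_add a).fun_inv (by positivity)
  simp only [one_div]
  exact h1.congr_deriv (by field_simp)

lemma TT_deriv {a b T : ℝ} (ha : 0 < a) (hb : 0 < b) (hT : 0 ≤ T) :
    HasDerivAt (fun T => T * (1 / (a + T)) * (1 / (b + T)))
      ((1 * (1 / (a + T)) + T * -(1 / (a + T) ^ 2)) * (1 / (b + T)) +
          T * (1 / (a + T)) * -(1 / (b + T) ^ 2)) T :=
  ((hasDerivAt_id' T).fun_mul (inv_deriv ha hT)).fun_mul (inv_deriv hb hT)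

lemma ell_shift_deriv {a b T : ℝ} (ha : 0 < a) (hb : 0 < b) (hT : 0 ≤ T) :
    HasDerivAt (fun T => ell (a + T) (b + T)) (-(1 / ((a + T) * (b + T)))) T := by
  by_cases h : a = b
  · subst h
    have : (fun T => ell (a + T) (a + T)) = fun T => 1 / (a + T) := by ext T; simp [ell]
    rw [this]
    exact (inv_deriv ha hT).congr_deriv (by rw [sq])
  · have : (fun T => ell (a + T) (b + T)) = fun T => (Lf a T - Lf b T) / (a - b) := by
      ext T; simp [ell, h, Lf]
    rw [this]
    refine (((Lf_deriv ha hT).fun_sub (Lf_deriv hb hT)).div_const (a - b)).congr_deriv ?_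
    have : a - b ≠ 0 := sub_ne_zero.mpr h
    field_simp; ring

lemma ell_shift_tendsto {a b : ℝ} (ha : 0 < a) (hb : 0 < b) :
    Tendsto (fun T => ell (a + T) (b + T)) atTop (𝓝 0) := by
  by_cases h : a = b
  · subst h
    have : (fun T => ell (a + T) (a + T)) = fun T => 1 / (a + T) := by ext T; simp [ell]
    rw [this]; exact tendsto_inv_add a
  · have : (fun T => ell (a + T) (b + T)) = fun T => (Lf a T - Lf b T) / (a - b) := by
      ext T; simp [ell, h, Lf]
    rw [this]
    simpa using ((Lf_tendsto ha).sub (Lf_tendsto hb)).div_const (a - b)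

theorem second_order (l : n → ℝ) (hl : ∀ i, 0 < l i) (X : Matrix n n ℂ) (hX : X.IsHermitian)
    (hP : (dg l + X).PosDef) (κ : ℝ) (hκ0 : 0 ≤ κ) (hκ : ((κ : ℂ) • dg l - X).PosSemidef) :
    vnEntropy (dg l + X) ≤ ∑ i, Real.negMulLog (l i) - ∑ i, (X i i).re * (Real.log (l i) + 1)
      - (1 - κ) / 2 * ∑ i, ∑ j, Complex.normSq (X i j) * ell (l i) (l j) := by
  obtain ⟨U, μ, hd⟩ := exists_diag hP.1
  have hμ := hd.pos hP
  have htr : ∑ k, μ k = ∑ i, l i + ∑ i, (X i i).re := by
    have := congrArg Complex.re hd.trace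
    rw [Complex.ofReal_re, trace_add, trace_dg, Complex.add_re, Complex.ofReal_re, Matrix.trace,
      Complex.re_sum] at this
    exact this.symm
  set x : n → n → ℝ := fun i j => Complex.normSq (X i j) with hx
  have hxs : ∀ i j, x i j = x j i := fun i j => by
    simp only [hx]; rw [← hX.apply j i]; simp
  let W : ℝ → ℝ := fun T => ∑ i, l i * Lf (l i) T + ∑ i, (X i i).re * (Lf (l i) T + l i * (1 / (l i + T)))
    + (1 - κ) / 2 * ∑ i, ∑ j, x i j * (ell (l i + T) (l j + T) + T * (1 / (l i + T)) * (1 / (l j + T)))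
    - ∑ k, μ k * Lf (μ k) T
  have hW : ∀ T, 0 ≤ T → ∃ w, 0 ≤ w ∧ HasDerivAt W w T := by
    intro T hT
    refine ⟨_, ?_, (((HasDerivAt.fun_sum fun i _ => (Lf_deriv (hl i) hT).const_mul (l i)).add
      (HasDerivAt.fun_sum fun i _ => ((Lf_deriv (hl i) hT).add
        ((inv_deriv (hl i) hT).const_mul (l i))).const_mul (X i i).re)).add
      ((HasDerivAt.fun_sum fun i _ => HasDerivAt.fun_sum fun j _ =>
        ((ell_shift_deriv (hl i) (hl j) hT).add
          (TT_deriv (hl i) (hl j) hT)).const_mul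
            (x i j)).const_mul ((1 - κ) / 2))).sub
      (HasDerivAt.fun_sum fun k _ => (Lf_deriv (hμ k) hT).const_mul (μ k))⟩
    have key := resolvent_ineq l hl X hX hd hμ κ hκ0 hκ T hT
    have hlt : ∀ i, 0 < l i + T := fun i => by have := hl i; linarith
    have hmt : ∀ i, 0 < μ i + T := fun i => by have := hμ i; linarith
    have a1 : ∑ i, l i * (1 / (l i + T) - 1 / (1 + T)) =
        Fintype.card n - T * ∑ i, 1 / (l i + T) - (∑ i, l i) / (1 + T) := by
      rw [Finset.mul_sum, Finset.sum_div, ← Finset.card_univ, Finset.card_eq_sum_ones]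
      push_cast
      rw [← Finset.sum_sub_distrib, ← Finset.sum_sub_distrib]
      refine Finset.sum_congr rfl fun i _ => ?_
      have := hlt i
      field_simp; ring
    have a4 : ∑ i, μ i * (1 / (μ i + T) - 1 / (1 + T)) =
        Fintype.card n - T * ∑ i, 1 / (μ i + T) - (∑ i, μ i) / (1 + T) := by
      rw [Finset.mul_sum, Finset.sum_div, ← Finset.card_univ, Finset.card_eq_sum_ones]
      push_cast
      rw [← Finset.sum_sub_distrib, ← Finset.sum_sub_distrib]
      refine Finset.sum_congr rfl fun i _ => ?_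
      have := hmt i
      field_simp; ring
    have a2 : ∑ i, (X i i).re * (1 / (l i + T) - 1 / (1 + T) + l i * -(1 / (l i + T) ^ 2)) =
        T * ∑ i, (X i i).re / (l i + T) ^ 2 - (∑ i, (X i i).re) / (1 + T) := by
      rw [Finset.mul_sum, Finset.sum_div, ← Finset.sum_sub_distrib]
      refine Finset.sum_congr rfl fun i _ => ?_
      have := hlt i
      field_simp; ring
    have a3 : ∑ i, ∑ j, x i j * (-(1 / ((l i + T) * (l j + T))) +
        ((1 * (1 / (l i + T)) + T * -(1 / (l i + T) ^ 2)) * (1 / (l j + T)) +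
          T * (1 / (l i + T)) * -(1 / (l j + T) ^ 2))) =
        -(2 * T * ∑ i, ∑ j, x i j / ((l i + T) ^ 2 * (l j + T))) := by
      have s1 : ∑ i, ∑ j, x i j / ((l i + T) ^ 2 * (l j + T)) =
          ∑ i, ∑ j, x i j / ((l j + T) ^ 2 * (l i + T)) := by
        rw [Finset.sum_comm]
        exact Finset.sum_congr rfl fun i _ => Finset.sum_congr rfl fun j _ => by rw [hxs]
      have s2 : 2 * T * ∑ i, ∑ j, x i j / ((l i + T) ^ 2 * (l j + T)) =
          T * ∑ i, ∑ j, x i j / ((l i + T) ^ 2 * (l j + T)) +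
          T * ∑ i, ∑ j, x i j / ((l j + T) ^ 2 * (l i + T)) := by rw [← s1]; ring
      rw [s2]
      simp only [Finset.mul_sum, ← Finset.sum_add_distrib, ← Finset.sum_neg_distrib]
      refine Finset.sum_congr rfl fun i _ => Finset.sum_congr rfl fun j _ => ?_
      have := hlt i
      have := hlt j
      field_simp; ring
    rw [a1, a2, a3, a4, htr, add_div]
    have := mul_le_mul_of_nonneg_left key hT
    simp only [hx] at this ⊢
    nlinarith
  have hmono : MonotoneOn W (Set.Ici 0) := by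
    refine monotoneOn_of_deriv_nonneg (convex_Ici 0) ?_ ?_ ?_
    · intro T hT
      obtain ⟨w, -, hw⟩ := hW T hT
      exact hw.continuousAt.continuousWithinAt
    · intro T hT
      obtain ⟨w, -, hw⟩ := hW T (interior_subset hT)
      exact hw.differentiableAt.differentiableWithinAt
    · intro T hT
      obtain ⟨w, h0, hw⟩ := hW T (interior_subset hT)
      rw [hw.deriv]; exact h0
  have hTT : ∀ a b : ℝ, 0 < a → Tendsto (fun T : ℝ => T * (1 / (a + T)) * (1 / (b + T))) atTop (𝓝 0) := by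
    intro a b ha
    have h1 : Tendsto (fun T : ℝ => (1 - a * (1 / (a + T))) * (1 / (b + T))) atTop
        (𝓝 ((1 - a * 0) * 0)) :=
      (((tendsto_inv_add a).const_mul a).const_sub 1).mul (tendsto_inv_add b)
    simp only [mul_zero] at h1
    refine h1.congr' ?_
    filter_upwards [eventually_gt_atTop 0] with T hT
    congr 1; field_simp; ring
  have hlim : Tendsto W atTop (𝓝 (∑ i, l i * 0 + ∑ i, (X i i).re * (0 + l i * 0)
      + (1 - κ) / 2 * ∑ i, ∑ j, x i j * (0 + 0) - ∑ k, μ k * 0)) :=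
    (((tendsto_finsetSum _ fun i _ => (Lf_tendsto (hl i)).const_mul (l i)).add
      (tendsto_finsetSum _ fun i _ => ((Lf_tendsto (hl i)).add
        ((tendsto_inv_add (l i)).const_mul (l i))).const_mul (X i i).re)).add
      ((tendsto_finsetSum _ fun i _ => tendsto_finsetSum _ fun j _ =>
        ((ell_shift_tendsto (hl i) (hl j)).add (hTT _ _ (hl i))).const_mul (x i j)).const_mul _)).sub
      (tendsto_finsetSum _ fun k _ => (Lf_tendsto (hμ k)).const_mul (μ k))
  simp only [mul_zero, add_zero, Finset.sum_const_zero, sub_zero] at hlim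
  have h0 : W 0 ≤ 0 := by
    refine ge_of_tendsto hlim ?_
    filter_upwards [eventually_ge_atTop 0] with T hT
    exact hmono Set.self_mem_Ici hT hT
  simp only [W, Lf, add_zero, Real.log_one, sub_zero, zero_mul] at h0
  have b1 : ∑ i, (X i i).re * (Real.log (l i) + l i * (1 / l i)) =
      ∑ i, (X i i).re * (Real.log (l i) + 1) :=
    Finset.sum_congr rfl fun i _ => by rw [mul_one_div_cancel (hl i).ne']
  rw [b1] at h0
  rw [hd.vn]
  simp only [Real.negMulLog, neg_mul, Finset.sum_neg_distrib]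
  simp only [hx] at h0
  linarith

end Crest.Agent.VN
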